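import Crest.Agent.R231.Loop

/-! R231: the action of chains of `ℝ` on chains of the loop space. -/

set_option autoImplicit false
set_option linter.unusedVariables false
set_option linter.unusedSectionVars false
open Set
open scoped Classical

noncomputable section
namespace Crest.Agent.R231
namespace Setup
variable {n : ℕ} (G : Setup n)

/-- Pontryagin product of chains of the group `ℝ` -/
def _root_.Crest.Agent.R231.mulR (a b : Ch ℝ) : Ch ℝ := mp (fun p : ℝ × ℝ => p.1 + p.2) (cr a b)

theorem act_def (a : Ch ℝ) (c : Ch G.Loop) : G.act a c = mp (fun p : ℝ × G.Loop => p.2.shift p.1) (cr a c) := rfl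

theorem act_mpc {X Y Z : Type} [TopologicalSpace X] [TopologicalSpace Y] [TopologicalSpace Z] {f : X → Y}
    (hf : Continuous f) (g : Y → Z) (c : Ch X) : mp g (mp f c) = mp (fun x => g (f x)) c :=
  mp_comp (mem_sup_univ c) hf.continuousOn g

theorem act_mp {X Y : Type} [TopologicalSpace X] [TopologicalSpace Y] {f : X → ℝ} {g : Y → G.Loop}
    (hf : Continuous f) (hg : Continuous g) (a : Ch X) (c : Ch Y) :
    G.act (mp f a) (mp g c) = mp (fun p : X × Y => (g p.2).shift (f p.1)) (cr a c) := by
  rw [act_def, ← mp_cr (mem_sup_univ a) (mem_sup_univ c) hf.continuousOn hg.continuousOn, act_mpc (by fun_prop)]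

theorem act_cont (s : ℝ) : Continuous (Loop.shift s : G.Loop → G.Loop) :=
  continuous_shift.comp (Continuous.prodMk_right s)

theorem act_add (a b : Ch ℝ) (c : Ch G.Loop) : G.act (a + b) c = G.act a c + G.act b c := by
  simp only [act_def, map_add, LinearMap.add_apply]

theorem act_zero (c : Ch G.Loop) : G.act 0 c = 0 := by
  simp only [act_def, map_zero, LinearMap.zero_apply]

theorem dd_act (a : Ch ℝ) (c : Ch G.Loop) : dd (G.act a c) = G.act (dd a) c + G.act a (dd c) := by
  rw [act_def, ← mp_dd (mem_sup_univ _) continuous_shift.continuousOn, dd_cr, map_add]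
  rfl

theorem act_act (a b : Ch ℝ) (c : Ch G.Loop) : G.act a (G.act b c) = G.act (mulR a b) c := by
  have h1 := G.act_mp continuous_id' continuous_shift a (cr b c)
  have h2 := G.act_mp (f := fun p : ℝ × ℝ => p.1 + p.2) (by fun_prop) continuous_id' (cr a b) c
  rw [mp_id] at h1 h2
  rw [act_def G b, h1, mulR, h2, ← cr_assoc, act_mpc (by fun_prop)]
  simp only [shift_shift]

theorem act_pt (s : ℝ) (c : Ch G.Loop) : G.act (pt s) c = mp (Loop.shift s) c := by
  rw [act_def, cr_pt_left, act_mpc (by fun_prop)]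

/-- translating the acting chain by `s` is acting by the rotation `s` before or after -/
theorem act_translate (s : ℝ) (a : Ch ℝ) (c : Ch G.Loop) :
    G.act (mp (fun t => t + s) a) c = G.act a (mp (Loop.shift s) c) := by
  have h1 := G.act_mp continuous_id' (G.act_cont s) a c
  have h2 := G.act_mp (f := fun t : ℝ => t + s) (by fun_prop) continuous_id' a c
  rw [mp_id] at h1 h2
  simp only [h1, h2, shift_shift]

theorem shift_act (s : ℝ) (a : Ch ℝ) (c : Ch G.Loop) :
    mp (Loop.shift s) (G.act a c) = G.act a (mp (Loop.shift s) c) := by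
  have h1 := G.act_mp continuous_id' (G.act_cont s) a c
  rw [mp_id] at h1
  rw [h1, act_def, act_mpc continuous_shift]
  simp only [shift_shift, add_comm]

theorem mp_shift_one (c : Ch G.Loop) : mp (Loop.shift 1) c = c := by
  rw [show (Loop.shift 1 : G.Loop → G.Loop) = fun x => x from funext shift_one, mp_id]

theorem act_mem {A : Set G.Loop} (hA : ∀ s, MapsTo (Loop.shift s) A A) (a : Ch ℝ) {c : Ch G.Loop}
    (hc : c ∈ sup A) : G.act a c ∈ sup A := by
  rw [act_def]
  exact mp_mem (cr_mem (mem_sup_univ a) hc) fun p hp => hA p.1 hp.2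

theorem act_cr_pr {X Y : Type} [TopologicalSpace X] [TopologicalSpace Y] {e : ℕ} {a : Ch X} (ha : Hom e a) (i : ℕ)
    (c : Ch Y) : cr a (pr i c) = pr (i + e) (cr a c) := by
  refine Ch_induction (p := fun c => cr a (pr i c) = pr (i + e) (cr a c)) c (by simp only [map_zero])
    (fun q _ => ?_) fun b c hb hc => by simp only [map_add, hb, hc]
  have h := ha.cr (hom_cb q)
  rw [pr_cb]
  split_ifs with hq
  · rw [← hq, add_comm]
    exact h.symm
  · rw [map_zero, h.pr_ne (by omega)]

theorem act_pr {e : ℕ} {a : Ch ℝ} (ha : Hom e a) (i : ℕ) (c : Ch G.Loop) :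
    G.act a (pr i c) = pr (i + e) (G.act a c) := by
  rw [act_def, act_def, ← mp_pr, act_cr_pr ha]

theorem tauC_act (a : Ch ℝ) (c : Ch G.Loop) : G.tauC (G.act a c) = G.act (mp (fun t => -t) a) (G.tauC c) := by
  rw [tauC, G.act_mp (by fun_prop) continuous_tau, act_def, act_mpc continuous_shift]
  simp only [tau_shift]

theorem BC_pr (i : ℕ) (c : Ch G.Loop) : G.BC (pr i c) = pr (i + 1) (G.BC c) := by
  exact G.act_pr ((hom_seg _ _).add (hom_seg _ _)) i c

theorem dd_BC (c : Ch G.Loop) : dd (G.BC c) = G.BC (dd c) := by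
  have h : (Loop.shift (-(1 / 2)) : G.Loop → G.Loop) = Loop.shift (1 / 2) := funext fun γ => by
    conv_lhs => rw [← shift_one γ, shift_shift]
    norm_num
  rw [BC, dd_act, map_add, dd_seg, dd_seg, act_add, act_add, act_add, act_pt, act_pt, act_pt, h, add_self, zero_add]

theorem tauC_BC (c : Ch G.Loop) : G.tauC (G.BC c) = G.BC (G.tauC c) := by
  have h : ∀ b : ℝ, mp (fun t => -t) (seg 0 b) = seg 0 (-b) := fun b => by
    simpa using mp_seg_affine 0 b (-1) 0
  rw [BC, tauC_act, map_add, h, h, neg_neg, add_comm]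

theorem act_bdry {z : Ch ℝ} (h1 : Hom 1 z) (hz : dd z = 0) {c : Ch G.Loop} (hc : dd c = 0) :
    ∃ w, dd w = G.act z c := by
  obtain ⟨u, -, hu⟩ := cycle_convex convex_univ (mem_univ 0) (mem_sup_univ z) hz
  exact ⟨G.act u c, by rw [dd_act, hc, map_zero, add_zero, hu, h1.aug one_ne_zero, zero_smul, add_zero]⟩

theorem act_BC (c : Ch G.Loop) : G.BC c = G.act (seg 0 (1 / 2) + seg 1 (1 / 2)) c := by
  have h : mp (fun t => t + 1) (seg 0 (-(1 / 2))) = seg 1 (1 / 2) := by
    have := mp_seg_affine 0 (-(1 / 2)) 1 1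
    norm_num at this ⊢
    exact this
  rw [BC, act_add, act_add, ← h, act_translate, mp_shift_one]

/-- `BC` is homologous to the action of `(1+r) [0,1/2]` -/
theorem BC_half {c : Ch G.Loop} (hc : dd c = 0) :
    ∃ w, dd w = G.BC c + G.act (seg 0 (1 / 2) + seg (1 / 2) 1) c := by
  rw [act_BC, ← act_add]
  refine G.act_bdry (((hom_seg _ _).add (hom_seg _ _)).add ((hom_seg _ _).add (hom_seg _ _))) ?_ hc
  simp only [map_add, dd_seg]
  rw [add_comm (pt 1), add_self]

/-- `BC` is homologous to the full rotation -/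
theorem BC_rot {c : Ch G.Loop} (hc : dd c = 0) : ∃ w, dd w = G.BC c + G.act (seg 0 1) c := by
  rw [act_BC, ← act_add]
  refine G.act_bdry (((hom_seg _ _).add (hom_seg _ _)).add (hom_seg _ _)) ?_ hc
  simp only [map_add, dd_seg]
  rw [add_add_add_comm (pt 0), add_self, add_zero, add_self]

theorem tauC_tauC (c : Ch G.Loop) : G.tauC (G.tauC c) = c := by
  rw [tauC, act_mpc continuous_tau]
  simp only [tau_tau, mp_id]

theorem dd_tauC (c : Ch G.Loop) : dd (G.tauC c) = G.tauC (dd c) := by
  exact (mp_dd (mem_sup_univ c) continuous_tau.continuousOn).symm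

theorem dd_jC (c : Ch G.Loop) : dd (G.jC c) = G.jC (dd c) := by
  exact (mp_dd (mem_sup_univ c) continuous_dbl.continuousOn).symm

theorem shift_half_jC (c : Ch G.Loop) : mp (Loop.shift (1 / 2)) (G.jC c) = G.jC c := by
  rw [jC, act_mpc continuous_dbl]
  simp only [shift_dbl, mul_one_div_cancel (two_ne_zero' ℝ), shift_one]

end Setup
end Crest.Agent.R231
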