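import Crest.Agent.R231.T.Defs

/-!
# R231: geometric set-up (definitions; FROZEN)

`Setup n` packages what the topological part uses of a Riemannian metric on `S^n` with finitely many closed geodesics:
a (truncated) distance `ρ`, short geodesics `gs`, the smooth generating function `S = ρ²`, and the finite family `c i` of
prime closed geodesics (period `1`, length `ℓ i`).
Curves are pairs `(T, f)` in `Cur n = ℝ × (ℝ →ᵤ M n)` (sup metric); loops are `1`-periodic and `T`-Lipschitz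
(the level `T` is a continuous function; open sublevels `Lt λ`).
-/

set_option autoImplicit false
open Set
open scoped Classical UniformConvergence ContDiff RealInnerProductSpace

noncomputable section
namespace Crest.Agent.R231

abbrev E (n : ℕ) := EuclideanSpace ℝ (Fin (n + 1))
abbrev M (n : ℕ) := Metric.sphere (0 : E n) 1

instance (n : ℕ) : BoundedSpace (M n) := Metric.isBounded_sphere.boundedSpace_subtype

/-- sign of an orientation -/
def sg (b : Bool) : ℝ := if b then 1 else -1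

structure Setup (n : ℕ) where
  ρ : M n → M n → ℝ
  δ : ℝ
  cL : ℝ
  δ_pos : 0 < δ
  one_le_cL : 1 ≤ cL
  ρ_le : ∀ x y, ρ x y ≤ cL * dist x y
  dist_le : ∀ x y, dist x y ≤ cL * ρ x y
  ρ_comm : ∀ x y, ρ x y = ρ y x
  ρ_tri : ∀ x y z, ρ x z ≤ ρ x y + ρ y z
  gs : M n → M n → ℝ → M n
  gv : M n → M n → ℝ → E n
  gs_cont : ContinuousOn (fun p : M n × M n × ℝ => gs p.1 p.2.1 p.2.2) {p | ρ p.1 p.2.1 < δ}
  gv_cont : ContinuousOn (fun p : M n × M n × ℝ => gv p.1 p.2.1 p.2.2) {p | ρ p.1 p.2.1 < δ}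
  gs_deriv : ∀ x y t, ρ x y < δ → HasDerivAt (fun u => (gs x y u : E n)) (gv x y t) t
  gs_zero : ∀ x y, ρ x y < δ → gs x y 0 = x
  gs_one : ∀ x y, ρ x y < δ → gs x y 1 = y
  gs_symm : ∀ x y t, ρ x y < δ → gs y x (1 - t) = gs x y t
  ρ_gs : ∀ x y s t, ρ x y < δ → s ∈ Icc (0 : ℝ) 1 → t ∈ Icc (0 : ℝ) 1 → ρ (gs x y s) (gs x y t) = |s - t| * ρ x y
  S : E n × E n → ℝ
  S_smooth : ContDiff ℝ ∞ S
  S_eq : ∀ x y : M n, ρ x y < δ → S (x, y) = ρ x y ^ 2
  S_mixed : ∀ x y : M n, ρ x y < δ → ∀ v : E n, ⟪v, (y : E n)⟫ = 0 →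
    (∀ w : E n, ⟪w, (x : E n)⟫ = 0 → fderiv ℝ (fderiv ℝ S) (x, y) (w, 0) (0, v) = 0) → v = 0
  ι : Type
  fin : Fintype ι
  c : ι → ℝ → M n
  c' : ι → ℝ → E n
  ℓ : ι → ℝ
  ℓ_pos : ∀ i, 0 < ℓ i
  c_per : ∀ i, Function.Periodic (c i) 1
  c_deriv : ∀ i t, HasDerivAt (fun u => (c i u : E n)) (c' i t) t
  c'_cont : ∀ i, Continuous (c' i)
  c'_ne : ∀ i t, c' i t ≠ 0
  c_loc : ∀ i s t, ℓ i * |s - t| < δ →
    ρ (c i s) (c i t) = ℓ i * |s - t| ∧ ∀ u, gs (c i s) (c i t) u = c i ((1 - u) * s + u * t)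
  c_prime : ∀ i s, (∀ t, c i (t + s) = c i t) → ∃ k : ℤ, s = k
  c_range : ∀ i j, range (c i) = range (c j) → i = j
  c_rev : ∀ i s, ¬ ∀ t, c i (s - t) = c i t
  crit : ∀ (N : ℕ) [NeZero N] (x : ZMod N → M n), (∀ k, ρ (x k) (x (k + 1)) < δ) →
    (∀ k (w : E n), ⟪w, (x k : E n)⟫ = 0 →
      fderiv ℝ S (x (k - 1), x k) (0, w) + fderiv ℝ S (x k, x (k + 1)) (w, 0) = 0) →
    (∀ k, x k = x 0) ∨ ∃ (i : ι) (m : ℕ) (b : Bool) (s : ℝ), 0 < m ∧
      (∀ z : ℤ, x (z : ZMod N) = c i (sg b * m * (z / N) + s)) ∧ ∀ k, ρ (x k) (x (k + 1)) = m * ℓ i / N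

attribute [instance] Setup.fin

abbrev Cur (n : ℕ) := ℝ × (ℝ →ᵤ M n)

variable {n : ℕ}

def Cur.ev (p : Cur n) (t : ℝ) : M n := UniformFun.toFun p.2 t
def mkC (T : ℝ) (f : ℝ → M n) : Cur n := (T, UniformFun.ofFun f)
@[simp] theorem mkC_fst (T : ℝ) (f : ℝ → M n) : (mkC T f).1 = T := rfl
@[simp] theorem mkC_ev (T : ℝ) (f : ℝ → M n) (t : ℝ) : (mkC T f).ev t = f t := rfl

/-- north pole -/
def north (n : ℕ) : M n := ⟨EuclideanSpace.single 0 1, by simp⟩

namespace Setup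
variable (G : Setup n)

theorem ρ_self (x : M n) : G.ρ x x = 0 := by
  have h1 := G.ρ_le x x
  have h2 := G.dist_le x x
  have h3 := G.one_le_cL
  rw [dist_self] at h1 h2
  nlinarith

def IsLoop (p : Cur n) : Prop :=
  0 ≤ p.1 ∧ Function.Periodic p.ev 1 ∧ ∀ s t, G.ρ (p.ev s) (p.ev t) ≤ p.1 * |s - t|

/-- the free loop space (epigraph model) -/
def Loop := {p : Cur n // G.IsLoop p}

instance : MetricSpace G.Loop := inferInstanceAs (MetricSpace {p : Cur n // G.IsLoop p})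

def constLoop (x : M n) : G.Loop :=
  ⟨mkC 0 (fun _ => x), le_rfl, fun _ => rfl, fun s t => by simp [G.ρ_self]⟩

/-- total constructor of loops -/
def toLoop (p : Cur n) : G.Loop := if h : G.IsLoop p then ⟨p, h⟩ else G.constLoop (north n)

variable {G}
/-- the level -/
def Loop.T (γ : G.Loop) : ℝ := γ.1.1
def Loop.ev (γ : G.Loop) (t : ℝ) : M n := γ.1.ev t

/-- rotation -/
def Loop.shift (s : ℝ) (γ : G.Loop) : G.Loop :=
  ⟨mkC γ.T (fun t => γ.ev (t + s)), γ.2.1, fun t => by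
    have := γ.2.2.1 (t + s)
    simp only [mkC_ev, Loop.ev]
    rw [← this]; congr 1; ring,
   fun a b => by simpa [Loop.ev, Loop.T] using γ.2.2.2 (a + s) (b + s)⟩

/-- reversal -/
def Loop.tau (γ : G.Loop) : G.Loop :=
  ⟨mkC γ.T (fun t => γ.ev (-t)), γ.2.1, fun t => by
    have := γ.2.2.1 (-(t + 1))
    simp only [mkC_ev, Loop.ev]
    rw [← this]; congr 1; ring,
   fun a b => by
    have := γ.2.2.2 (-a) (-b)
    rw [show -a - -b = -(a - b) by ring, abs_neg] at this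
    simpa [Loop.ev, Loop.T] using this⟩

/-- doubling -/
def Loop.dbl (γ : G.Loop) : G.Loop :=
  ⟨mkC (2 * γ.T) (fun t => γ.ev (2 * t)), by have := γ.2.1; simp only [mkC_fst, Loop.T]; linarith, fun t => by
    have h1 := γ.2.2.1 (2 * t)
    have h2 := γ.2.2.1 (2 * t + 1)
    simp only [mkC_ev, Loop.ev]
    rw [← h1, ← h2]; congr 1; ring,
   fun a b => by
    have := γ.2.2.2 (2 * a) (2 * b)
    rw [show 2 * a - 2 * b = 2 * (a - b) by ring, abs_mul, abs_two] at this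
    simp only [mkC_ev, mkC_fst, Loop.ev, Loop.T]
    linarith⟩

variable (G)
/-- open sublevel -/
def Lt (l : ℝ) : Set G.Loop := {γ | γ.T < l}

/-- the closed geodesic `t ↦ c i (± m t + s)` at its level `m ℓ i` -/
def geo (i : G.ι) (m : ℕ) (b : Bool) (s : ℝ) : G.Loop :=
  G.toLoop (mkC (m * G.ℓ i) (fun t => G.c i (sg b * m * t + s)))

/-- critical values -/
def critV : Set ℝ := {l | ∃ (i : G.ι) (m : ℕ), 0 < m ∧ l = m * G.ℓ i}

/-- the critical circle of the `m`-th iterate of `c i` with orientation `b` -/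
def Orb (i : G.ι) (m : ℕ) (b : Bool) : Set G.Loop := range (G.geo i m b)

/-- the critical loops of level `l` and orientation `b` -/
def Kr (l : ℝ) (b : Bool) : Set G.Loop := {γ | ∃ (i : G.ι) (m : ℕ), 0 < m ∧ l = m * G.ℓ i ∧ γ ∈ G.Orb i m b}

/-- open tube about the critical loops of level `l` and orientation `b` -/
def Tube (l : ℝ) (b : Bool) (r : ℝ) : Set G.Loop := Metric.thickening r (G.Kr l b)

/-- action of chains of the group `ℝ` (through rotations) -/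
def act (a : Ch ℝ) : Ch G.Loop →ₗ[F2] Ch G.Loop := mp (fun p : ℝ × G.Loop => p.2.shift p.1) ∘ₗ cr a

def tauC : Ch G.Loop →ₗ[F2] Ch G.Loop := mp Loop.tau
def jC : Ch G.Loop →ₗ[F2] Ch G.Loop := mp Loop.dbl
/-- the `τ`-symmetric model of the BV operator -/
def BC : Ch G.Loop →ₗ[F2] Ch G.Loop := G.act (seg 0 (1 / 2) + seg 0 (-(1 / 2)))

/-! ### the discrete model -/

/-- nodes of a loop -/
def nodes (N : ℕ) (γ : G.Loop) : ZMod N → M n := fun k => γ.ev ((k.val : ℝ) / N)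

/-- polygons with short edges -/
def Dom (N : ℕ) : Set (ZMod N → M n) := {x | ∀ k, G.ρ (x k) (x (k + 1)) < G.δ}

/-- discrete energy -/
def en (N : ℕ) [NeZero N] (x : ZMod N → M n) : ℝ := N * ∑ k, G.ρ (x k) (x (k + 1)) ^ 2

/-- the geodesic polygon with uniform node times -/
def poly (N : ℕ) (x : ZMod N → M n) (t : ℝ) : M n :=
  G.gs (x (⌊N * t⌋ : ℤ)) (x ((⌊N * t⌋ : ℤ) + 1)) (Int.fract (N * t))

end Setup

/-- the Tate differential on sequences `z : ℕ → C` (`z i` of degree `i`); `sig k` has degree `2k+1` -/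
def DD {C : Type} [AddCommGroup C] [Module F2 C] (d : C →ₗ[F2] C) (sig : ℕ → C →ₗ[F2] C) (z : ℕ → C) (i : ℕ) : C :=
  d (z (i + 1)) + ∑ k ∈ (Finset.range i).filter (fun k => 2 * k + 1 ≤ i), sig k (z (i - (2 * k + 1)))

/-- rank of `H(A,B) → H(A',B')` for submodules of a differential module -/
def hrk {C : Type} [AddCommGroup C] [Module F2 C] (d : C →ₗ[F2] C) (A B A' B' : Submodule F2 C) : Cardinal :=
  Module.rank F2 ((A ⊓ B.comap d).map (A'.map d ⊔ B').mkQ)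

theorem RankLE_iff {X : Type} [TopologicalSpace X] (A B A' B' : Set X) (R : ℕ) :
    RankLE A B A' B' R ↔ hrk dd (sup A) (sup B) (sup A') (sup B') ≤ R := Iff.rfl

end Crest.Agent.R231
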