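import Crest.Agent.R231.Setup
import Crest.Agent.R231.T.Cross

/-! R231: basic API of `ρ`, of curves and of the loop space. -/

set_option autoImplicit false
set_option linter.unusedVariables false
set_option linter.unusedSectionVars false
open Set
open scoped Classical

noncomputable section
namespace Crest.Agent.R231
namespace Setup
variable {n : ℕ} (G : Setup n)

theorem ρ_nonneg (x y : M n) : 0 ≤ G.ρ x y := by
  have h := G.ρ_tri x y x
  rw [G.ρ_self, G.ρ_comm y x] at h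
  linarith

theorem ρ_eq_zero {x y : M n} (h : G.ρ x y = 0) : x = y := by
  have h1 := G.dist_le x y
  rw [h, mul_zero] at h1
  exact dist_le_zero.1 h1

theorem continuous_ρ : Continuous (fun p : M n × M n => G.ρ p.1 p.2) := by
  have key : ∀ p q : M n × M n, G.ρ p.1 p.2 - G.ρ q.1 q.2 ≤ 2 * G.cL * dist p q := fun p q => by
    have h1 := G.ρ_tri p.1 q.1 p.2
    have h2 := G.ρ_tri q.1 q.2 p.2
    have h3 := G.ρ_le p.1 q.1
    have h4 := G.ρ_le p.2 q.2
    have h0 : 0 ≤ G.cL := zero_le_one.trans G.one_le_cL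
    have h5 : G.cL * dist p.1 q.1 ≤ G.cL * dist p q :=
      mul_le_mul_of_nonneg_left (by rw [Prod.dist_eq]; exact le_max_left _ _) h0
    have h6 : G.cL * dist p.2 q.2 ≤ G.cL * dist p q :=
      mul_le_mul_of_nonneg_left (by rw [Prod.dist_eq]; exact le_max_right _ _) h0
    rw [G.ρ_comm q.2 p.2] at h2
    linarith
  refine (LipschitzWith.of_dist_le' (K := 2 * G.cL) fun p q => ?_).continuous
  rw [Real.dist_eq, abs_sub_le_iff]
  exact ⟨key p q, by rw [dist_comm]; exact key q p⟩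

theorem gs_self (x : M n) {t : ℝ} (ht : t ∈ Icc (0 : ℝ) 1) : G.gs x x t = x := by
  have h : G.ρ x x < G.δ := by rw [G.ρ_self]; exact G.δ_pos
  have h1 := G.ρ_gs x x t 0 h ht ⟨le_rfl, zero_le_one⟩
  rw [G.ρ_self, mul_zero, G.gs_zero x x h] at h1
  exact G.ρ_eq_zero h1

theorem ρ_gs_left {x y : M n} (h : G.ρ x y < G.δ) {t : ℝ} (ht : t ∈ Icc (0 : ℝ) 1) :
    G.ρ x (G.gs x y t) = t * G.ρ x y := by
  have h1 := G.ρ_gs x y 0 t h ⟨le_rfl, zero_le_one⟩ ht
  rwa [G.gs_zero x y h, zero_sub, abs_neg, abs_of_nonneg ht.1] at h1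

theorem ρ_gs_right {x y : M n} (h : G.ρ x y < G.δ) {t : ℝ} (ht : t ∈ Icc (0 : ℝ) 1) :
    G.ρ (G.gs x y t) y = (1 - t) * G.ρ x y := by
  have h1 := G.ρ_gs x y t 1 h ht ⟨zero_le_one, le_rfl⟩
  rwa [G.gs_one x y h, abs_sub_comm, abs_of_nonneg (sub_nonneg.2 ht.2)] at h1

/-- a curve that is locally `L`-Lipschitz for `ρ` is `L`-Lipschitz -/
theorem lip_of_local {f : ℝ → M n} {L η : ℝ} (hη : 0 < η) (hL : 0 ≤ L)
    (h : ∀ s t, |s - t| < η → G.ρ (f s) (f t) ≤ L * |s - t|) (s t : ℝ) : G.ρ (f s) (f t) ≤ L * |s - t| := by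
  have key : ∀ N : ℕ, ∀ s t, |s - t| < (N + 1) * η → G.ρ (f s) (f t) ≤ L * |s - t| := by
    intro N
    induction N with
    | zero => intro s t hst; exact h s t (by simpa using hst)
    | succ N ih =>
      intro s t hst
      push_cast at hst
      have hN : (0 : ℝ) < N + 1 + 1 := by positivity
      set a : ℝ := 1 / (N + 1 + 1) with ha
      have ha0 : 0 < a := by positivity
      have ha1 : (N + 1 + 1) * a = 1 := by rw [ha]; field_simp
      have e1 : |s - (s + a * (t - s))| = a * |s - t| := by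
        rw [show s - (s + a * (t - s)) = a * (s - t) by ring, abs_mul, abs_of_pos ha0]
      have e2 : |s + a * (t - s) - t| = (N + 1) * (a * |s - t|) := by
        rw [show s + a * (t - s) - t = (N + 1) * (a * (s - t)) by linear_combination (t - s) * ha1,
          abs_mul, abs_mul, abs_of_pos ha0, abs_of_pos (by positivity : (0 : ℝ) < N + 1)]
      have h1 : a * |s - t| < η := by
        have := mul_lt_mul_of_pos_left hst ha0
        rwa [← mul_assoc, mul_comm a (N + 1 + 1), ha1, one_mul] at this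
      have h2 := h s (s + a * (t - s)) (by rwa [e1])
      have h3 := ih (s + a * (t - s)) t (by rw [e2]; exact mul_lt_mul_of_pos_left h1 (by positivity))
      rw [e1] at h2
      rw [e2] at h3
      refine (G.ρ_tri _ (f (s + a * (t - s))) _).trans ((add_le_add h2 h3).trans (le_of_eq ?_))
      linear_combination (L * |s - t|) * ha1
  obtain ⟨N, hN⟩ := exists_nat_gt (|s - t| / η)
  rw [div_lt_iff₀ hη] at hN
  exact key N s t (by linarith)

theorem c_lip (i : G.ι) (s t : ℝ) : G.ρ (G.c i s) (G.c i t) ≤ G.ℓ i * |s - t| := by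
  refine G.lip_of_local (div_pos G.δ_pos (G.ℓ_pos i)) (G.ℓ_pos i).le (fun s t h => ?_) s t
  rw [lt_div_iff₀' (G.ℓ_pos i)] at h
  exact (G.c_loc i s t h).1.le

theorem continuous_c (i : G.ι) : Continuous (G.c i) := by
  exact continuous_induced_rng.2 (continuous_iff_continuousAt.2 fun t => (G.c_deriv i t).continuousAt)

theorem gv_c (i : G.ι) {s t : ℝ} (h : G.ℓ i * |s - t| < G.δ) (u : ℝ) :
    G.gv (G.c i s) (G.c i t) u = (t - s) • G.c' i ((1 - u) * s + u * t) := by
  obtain ⟨h1, h2⟩ := G.c_loc i s t h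
  have h3 := G.gs_deriv (G.c i s) (G.c i t) u (by rwa [h1])
  simp only [h2] at h3
  have h4 : HasDerivAt (fun u : ℝ => (1 - u) * s + u * t) (t - s) u := by
    have := (((hasDerivAt_id u).const_sub 1).mul_const s).add ((hasDerivAt_id u).mul_const t)
    exact this.congr_deriv (by ring)
  exact h3.unique ((G.c_deriv i _).scomp u h4)

end Setup

theorem Cur.ext' {n : ℕ} {p q : Cur n} (h1 : p.1 = q.1) (h2 : ∀ t, p.ev t = q.ev t) : p = q := by
  exact Prod.ext h1 (UniformFun.toFun.injective (funext h2))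

theorem Cur.dist_ev_le {n : ℕ} (p q : Cur n) (t : ℝ) : dist (p.ev t) (q.ev t) ≤ dist p q := by
  refine ((UniformFun.dist_le dist_nonneg).1 (le_refl (dist p.2 q.2)) t).trans ?_
  rw [Prod.dist_eq]
  exact le_max_right _ _

theorem Cur.dist_le {n : ℕ} {p q : Cur n} {r : ℝ} (h1 : |p.1 - q.1| ≤ r) (h2 : ∀ t, dist (p.ev t) (q.ev t) ≤ r) :
    dist p q ≤ r := by
  rw [Prod.dist_eq]
  exact max_le h1 ((UniformFun.dist_le ((abs_nonneg _).trans h1)).2 h2)

/-- continuity criterion for families of curves that are periodic or constant outside a locally bounded interval: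
joint continuity plus reduction of the time variable to a compact interval -/
theorem continuousOn_mkC {n : ℕ} {X : Type} [TopologicalSpace X] {A : Set X} {T : X → ℝ} {f : X → ℝ → M n}
    (hT : ContinuousOn T A) (hf : ContinuousOn (fun p : X × ℝ => f p.1 p.2) (A ×ˢ univ))
    (hunif : ∀ x ∈ A, ∃ R : ℝ, ∃ U ∈ nhdsWithin x A, ∀ t, ∃ t' ∈ Icc (-R) R, ∀ y ∈ U, f y t = f y t') :
    ContinuousOn (fun x => mkC (T x) (f x)) A := by
  refine hT.prodMk fun x hx => Metric.tendsto_nhds.2 fun ε hε => ?_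
  obtain ⟨R, U, hU, hR⟩ := hunif x hx
  have hx' : Continuous (f x) :=
    hf.comp_continuous (continuous_const.prodMk continuous_id) fun t => ⟨hx, trivial⟩
  have h1 : ∀ᶠ y in nhds x, ∀ t ∈ Icc (-R) R, y ∈ A → dist (f y t) (f x t) < ε / 2 := by
    refine isCompact_Icc.eventually_forall_of_forall_eventually fun t _ => ?_
    have h2 : ContinuousWithinAt (fun p : X × ℝ => dist (f p.1 p.2) (f x p.2)) (A ×ˢ univ) (x, t) :=
      (hf (x, t) ⟨hx, trivial⟩).dist (hx'.comp continuous_snd).continuousWithinAt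
    have h3 := eventually_nhdsWithin_iff.1
      (h2.tendsto.eventually (gt_mem_nhds (show dist (f x t) (f x t) < ε / 2 by simpa using hε)))
    exact h3.mono fun p hp hA => hp ⟨hA, trivial⟩
  filter_upwards [nhdsWithin_le_nhds h1, hU, self_mem_nhdsWithin] with y hy hyU hyA
  refine lt_of_le_of_lt ((UniformFun.dist_le (half_pos hε).le).2 fun t => ?_) (half_lt_self hε)
  obtain ⟨t', ht', e⟩ := hR t
  change dist (f y t) (f x t) ≤ _
  rw [e y hyU, e x (mem_of_mem_nhdsWithin hx hU)]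
  exact (hy t' ht' hyA).le

namespace Setup
variable {n : ℕ} {G : Setup n}

theorem Loop.ext' {γ γ' : G.Loop} (h1 : γ.T = γ'.T) (h2 : ∀ t, γ.ev t = γ'.ev t) : γ = γ' := by
  exact Subtype.ext (Cur.ext' h1 h2)

theorem Loop.T_nonneg (γ : G.Loop) : 0 ≤ γ.T := γ.2.1
theorem Loop.per (γ : G.Loop) : Function.Periodic γ.ev 1 := γ.2.2.1
theorem Loop.lip (γ : G.Loop) (s t : ℝ) : G.ρ (γ.ev s) (γ.ev t) ≤ γ.T * |s - t| := γ.2.2.2 s t

theorem l1_toLoop {p : Cur n} (h : G.IsLoop p) : G.toLoop p = (⟨p, h⟩ : G.Loop) := dif_pos h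

theorem toLoop_T {T : ℝ} {f : ℝ → M n} (h : G.IsLoop (mkC T f)) : (G.toLoop (mkC T f)).T = T := by
  exact congrArg Loop.T (l1_toLoop h)

theorem toLoop_ev {T : ℝ} {f : ℝ → M n} (h : G.IsLoop (mkC T f)) (t : ℝ) : (G.toLoop (mkC T f)).ev t = f t := by
  exact congrArg (fun γ => Loop.ev γ t) (l1_toLoop h)

theorem toLoop_val {p : Cur n} (h : G.IsLoop p) : (G.toLoop p).1 = p := by
  exact congrArg Subtype.val (l1_toLoop h)

theorem continuous_T : Continuous (Loop.T : G.Loop → ℝ) := by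
  exact continuous_fst.comp continuous_subtype_val

theorem l1_dist {p : Cur n} (h : G.IsLoop p) (s t : ℝ) :
    dist (p.ev s) (p.ev t) ≤ G.cL * p.1 * |s - t| := by
  rw [mul_assoc]
  exact (G.dist_le _ _).trans (mul_le_mul_of_nonneg_left (h.2.2 s t) (zero_le_one.trans G.one_le_cL))

theorem l1_lip {p : Cur n} (h : G.IsLoop p) : LipschitzWith (G.cL * p.1).toNNReal p.ev :=
  LipschitzWith.of_dist_le' fun s t => l1_dist h s t

theorem continuous_ev : Continuous (fun p : G.Loop × ℝ => p.1.ev p.2) := by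
  refine continuous_prod_of_continuous_lipschitzWith _ 1 (fun γ => (l1_lip γ.2).continuous) fun t => ?_
  exact LipschitzWith.mk_one fun γ γ' => Cur.dist_ev_le γ.1 γ'.1 t

/-- continuity criterion for families of loops -/
theorem continuousOn_toLoop {X : Type} [TopologicalSpace X] {A : Set X} {T : X → ℝ} {f : X → ℝ → M n}
    (hL : ∀ x ∈ A, G.IsLoop (mkC (T x) (f x))) (hT : ContinuousOn T A)
    (hf : ContinuousOn (fun p : X × ℝ => f p.1 p.2) (A ×ˢ univ)) :
    ContinuousOn (fun x => G.toLoop (mkC (T x) (f x))) A := by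
  refine (Topology.IsInducing.subtypeVal (t := {p : Cur n | G.IsLoop p})).continuousOn_iff.2 ?_
  refine (continuousOn_mkC hT hf fun x hx => ⟨1, A, self_mem_nhdsWithin, fun t =>
    ⟨Int.fract t, ⟨by linarith [Int.fract_nonneg t], (Int.fract_lt_one t).le⟩, fun y hy => ?_⟩⟩).congr
    fun x hx => toLoop_val (hL x hx)
  have h := (hL y hy).2.1.sub_int_mul_eq (x := t) ⌊t⌋
  rw [mul_one] at h
  exact h.symm

theorem Loop.dist_ev_le (γ γ' : G.Loop) (t : ℝ) : dist (γ.ev t) (γ'.ev t) ≤ dist γ γ' := by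
  exact Cur.dist_ev_le γ.1 γ'.1 t

theorem Loop.abs_T_le (γ γ' : G.Loop) : |γ.T - γ'.T| ≤ dist γ γ' := by
  change dist γ.1.1 γ'.1.1 ≤ dist γ.1 γ'.1
  rw [Prod.dist_eq]
  exact le_max_left _ _

theorem Loop.dist_le {γ γ' : G.Loop} {r : ℝ} (h1 : |γ.T - γ'.T| ≤ r) (h2 : ∀ t, dist (γ.ev t) (γ'.ev t) ≤ r) :
    dist γ γ' ≤ r := by
  exact Cur.dist_le h1 h2

@[simp] theorem shift_T (s : ℝ) (γ : G.Loop) : (γ.shift s).T = γ.T := rfl
@[simp] theorem shift_ev (s : ℝ) (γ : G.Loop) (t : ℝ) : (γ.shift s).ev t = γ.ev (t + s) := rfl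
@[simp] theorem tau_T (γ : G.Loop) : γ.tau.T = γ.T := rfl
@[simp] theorem tau_ev (γ : G.Loop) (t : ℝ) : γ.tau.ev t = γ.ev (-t) := rfl
@[simp] theorem dbl_T (γ : G.Loop) : γ.dbl.T = 2 * γ.T := rfl
@[simp] theorem dbl_ev (γ : G.Loop) (t : ℝ) : γ.dbl.ev t = γ.ev (2 * t) := rfl

theorem shift_zero (γ : G.Loop) : γ.shift 0 = γ := by
  exact Loop.ext' rfl fun t => by rw [shift_ev, add_zero]

theorem shift_one (γ : G.Loop) : γ.shift 1 = γ := by
  exact Loop.ext' rfl fun t => γ.per t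

theorem shift_shift (s s' : ℝ) (γ : G.Loop) : (γ.shift s).shift s' = γ.shift (s' + s) := by
  exact Loop.ext' rfl fun t => by simp only [shift_ev, add_assoc]

theorem tau_tau (γ : G.Loop) : γ.tau.tau = γ := by
  exact Loop.ext' rfl fun t => by simp only [tau_ev, neg_neg]

theorem tau_shift (s : ℝ) (γ : G.Loop) : (γ.shift s).tau = γ.tau.shift (-s) := by
  exact Loop.ext' rfl fun t => by simp only [tau_ev, shift_ev, neg_add, neg_neg]

theorem shift_dbl (s : ℝ) (γ : G.Loop) : γ.dbl.shift s = (γ.shift (2 * s)).dbl := by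
  exact Loop.ext' rfl fun t => by simp only [dbl_ev, shift_ev, mul_add]

theorem l1_shift_le (s : ℝ) (γ γ' : G.Loop) : dist (γ.shift s) (γ'.shift s) ≤ dist γ γ' :=
  Loop.dist_le (γ.abs_T_le γ') fun t => γ.dist_ev_le γ' _

theorem l1_tau_le (γ γ' : G.Loop) : dist γ.tau γ'.tau ≤ dist γ γ' :=
  Loop.dist_le (γ.abs_T_le γ') fun t => γ.dist_ev_le γ' _

theorem continuous_shift : Continuous (fun p : ℝ × G.Loop => p.2.shift p.1) := by
  refine continuous_prod_of_continuous_lipschitzWith' _ 1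
    (fun s => LipschitzWith.mk_one (l1_shift_le s)) fun γ => ?_
  have h0 : 0 ≤ G.cL * γ.T := mul_nonneg (zero_le_one.trans G.one_le_cL) γ.T_nonneg
  refine (LipschitzWith.of_dist_le' (K := G.cL * γ.T) fun s s' => Loop.dist_le ?_ fun t => ?_).continuous
  · rw [shift_T, shift_T, sub_self, abs_zero]
    exact mul_nonneg h0 dist_nonneg
  · have h := l1_dist γ.2 (t + s) (t + s')
    rwa [add_sub_add_left_eq_sub] at h

theorem dist_shift (s : ℝ) (γ γ' : G.Loop) : dist (γ.shift s) (γ'.shift s) = dist γ γ' := by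
  refine le_antisymm (l1_shift_le s γ γ') ?_
  have h := l1_shift_le (-s) (γ.shift s) (γ'.shift s)
  rwa [shift_shift, shift_shift, neg_add_cancel, shift_zero, shift_zero] at h

theorem dist_tau (γ γ' : G.Loop) : dist γ.tau γ'.tau = dist γ γ' := by
  refine le_antisymm (l1_tau_le γ γ') ?_
  have h := l1_tau_le γ.tau γ'.tau
  rwa [tau_tau, tau_tau] at h

theorem dist_dbl_le (γ γ' : G.Loop) : dist γ.dbl γ'.dbl ≤ 2 * dist γ γ' := by
  refine Loop.dist_le ?_ fun t => (γ.dist_ev_le γ' _).trans (by linarith [dist_nonneg (x := γ) (y := γ')])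
  rw [dbl_T, dbl_T, ← mul_sub, abs_mul, abs_two]
  linarith [γ.abs_T_le γ']

theorem continuous_tau : Continuous (Loop.tau : G.Loop → G.Loop) := by
  exact (LipschitzWith.mk_one l1_tau_le).continuous

theorem continuous_dbl : Continuous (Loop.dbl : G.Loop → G.Loop) := by
  exact (LipschitzWith.of_dist_le' dist_dbl_le).continuous

theorem isOpen_Lt (l : ℝ) : IsOpen (G.Lt l) := by
  exact isOpen_lt continuous_T continuous_const

/-- Arzelà-Ascoli -/
theorem isCompact_le (l : ℝ) : IsCompact {γ : G.Loop | γ.T ≤ l} := by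
  set A : Set (ℝ × (ℝ → M n)) := {x | x.1 ≤ l ∧ G.IsLoop (mkC x.1 x.2)} with hA
  have ev : ∀ t : ℝ, Continuous fun x : ℝ × (ℝ → M n) => x.2 t := fun t =>
    (continuous_apply t).comp continuous_snd
  have h1 : IsClosed A := by
    refine (isClosed_le continuous_fst continuous_const).inter
      ((isClosed_le continuous_const continuous_fst).inter (IsClosed.inter ?_ ?_))
    · change IsClosed {x : ℝ × (ℝ → M n) | ∀ t, x.2 (t + 1) = x.2 t}
      rw [ofPred_forall]
      exact isClosed_iInter fun t => isClosed_eq (ev _) (ev _)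
    · change IsClosed {x : ℝ × (ℝ → M n) | ∀ s t, G.ρ (x.2 s) (x.2 t) ≤ x.1 * |s - t|}
      simp only [ofPred_forall]
      exact isClosed_iInter fun s => isClosed_iInter fun t =>
        isClosed_le (G.continuous_ρ.comp ((ev s).prodMk (ev t))) (continuous_fst.mul continuous_const)
  have h2 : IsCompact A :=
    ((isCompact_Icc (a := 0) (b := l)).prod isCompact_univ).of_isClosed_subset h1
      fun x hx => ⟨⟨hx.2.1, hx.1⟩, trivial⟩
  have h3 : ContinuousOn (fun p : (ℝ × (ℝ → M n)) × ℝ => p.1.2 p.2) (A ×ˢ univ) := by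
    refine continuousOn_prod_of_continuousOn_lipschitzOnWith' _ (G.cL * l).toNNReal
      (fun x hx => (LipschitzWith.of_dist_le' fun s t => (l1_dist hx.2 s t).trans ?_).lipschitzOnWith)
      fun t _ => (ev t).continuousOn
    exact mul_le_mul_of_nonneg_right (mul_le_mul_of_nonneg_left hx.1 (zero_le_one.trans G.one_le_cL))
      (abs_nonneg _)
  convert h2.image_of_continuousOn
    (continuousOn_toLoop (G := G) (fun x hx => hx.2) continuous_fst.continuousOn h3) using 1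
  ext γ
  constructor
  · intro h
    exact ⟨(γ.T, γ.ev), ⟨h, γ.2⟩, Subtype.ext (toLoop_val γ.2)⟩
  · rintro ⟨x, hx, rfl⟩
    exact (toLoop_T hx.2).trans_le hx.1

/-- chains in an open sublevel lie in a smaller sublevel -/
theorem exists_lt_of_mem_sup {l : ℝ} {A : Set G.Loop} {c : Ch G.Loop} (hc : c ∈ sup (A ∩ G.Lt l)) :
    ∃ l' < l, c ∈ sup (A ∩ G.Lt l') := by
  obtain ⟨K, hK, hKA, hc'⟩ := exists_compact hc
  rcases K.eq_empty_or_nonempty with rfl | hn
  · exact ⟨l - 1, by linarith, sup_mono (empty_subset _) hc'⟩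
  obtain ⟨γ, hγ, hm⟩ := hK.exists_isMaxOn hn continuous_T.continuousOn
  obtain ⟨l', h1, h2⟩ := exists_between (show γ.T < l from (hKA hγ).2)
  have h3 : K ⊆ A ∩ G.Lt l' := fun x hx => ⟨(hKA hx).1, lt_of_le_of_lt (hm hx) h1⟩
  exact ⟨l', h2, sup_mono h3 hc'⟩

theorem exists_mem_Lt (c : Ch G.Loop) : ∃ l, c ∈ sup (G.Lt l) := by
  obtain ⟨K, hK, -, hc'⟩ := exists_compact (mem_sup_univ c)
  obtain ⟨l, hl⟩ := hK.bddAbove_image continuous_T.continuousOn
  exact ⟨l + 1, sup_mono (fun x hx => lt_of_le_of_lt (hl (mem_image_of_mem _ hx)) (lt_add_one l)) hc'⟩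

/-! ### closed geodesics -/

theorem loop2_abs (b : Bool) : |sg b| = 1 := by cases b <;> simp [sg]

theorem loop2_not (b : Bool) : sg (!b) = -sg b := by cases b <;> simp [sg]

theorem loop2_geo (i : G.ι) (m : ℕ) (b : Bool) (s : ℝ) :
    G.IsLoop (mkC (m * G.ℓ i) fun t => G.c i (sg b * m * t + s)) := by
  refine ⟨mul_nonneg m.cast_nonneg (G.ℓ_pos i).le, fun t => ?_, fun t u => ?_⟩
  · simp only [mkC_ev]
    rw [← ((G.c_per i).int_mul (if b then m else -m)) (sg b * m * t + s)]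
    congr 1
    cases b <;> simp [sg] <;> ring
  · refine (G.c_lip i _ _).trans_eq ?_
    rw [add_sub_add_right_eq_sub, ← mul_sub, abs_mul, abs_mul, loop2_abs, Nat.abs_cast, mkC_fst]
    ring

theorem loop2_surj {m : ℕ} (hm : 0 < m) (b : Bool) (s u : ℝ) : ∃ t : ℝ, sg b * m * t + s = u := by
  have h : sg b * m ≠ 0 := mul_ne_zero (abs_pos.1 (by rw [loop2_abs]; exact one_pos)) (by positivity)
  exact ⟨(u - s) / (sg b * m), by rw [mul_div_cancel₀ _ h, sub_add_cancel]⟩

theorem geo_T (i : G.ι) (m : ℕ) (b : Bool) (s : ℝ) : (G.geo i m b s).T = m * G.ℓ i := by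
  exact toLoop_T (loop2_geo i m b s)

theorem geo_ev (i : G.ι) (m : ℕ) (b : Bool) (s t : ℝ) : (G.geo i m b s).ev t = G.c i (sg b * m * t + s) := by
  exact toLoop_ev (loop2_geo i m b s) t

theorem geo_shift (i : G.ι) (m : ℕ) (b : Bool) (s u : ℝ) :
    (G.geo i m b s).shift u = G.geo i m b (s + sg b * m * u) := by
  refine Loop.ext' (by rw [shift_T, geo_T, geo_T]) fun t => ?_
  rw [shift_ev, geo_ev, geo_ev]
  congr 1
  ring

theorem geo_tau (i : G.ι) (m : ℕ) (b : Bool) (s : ℝ) : (G.geo i m b s).tau = G.geo i m (!b) s := by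
  refine Loop.ext' (by rw [tau_T, geo_T, geo_T]) fun t => ?_
  rw [tau_ev, geo_ev, geo_ev, loop2_not]
  congr 1
  ring

theorem geo_dbl (i : G.ι) (m : ℕ) (b : Bool) (s : ℝ) : (G.geo i m b s).dbl = G.geo i (2 * m) b s := by
  refine Loop.ext' (by rw [dbl_T, geo_T, geo_T]; push_cast; ring) fun t => ?_
  rw [dbl_ev, geo_ev, geo_ev]
  congr 1
  push_cast
  ring

theorem geo_per (i : G.ι) (m : ℕ) (b : Bool) : Function.Periodic (G.geo i m b) 1 := by
  refine fun s => Loop.ext' (by rw [geo_T, geo_T]) fun t => ?_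
  rw [geo_ev, geo_ev, ← add_assoc, G.c_per i]

theorem continuous_geo (i : G.ι) (m : ℕ) (b : Bool) : Continuous (G.geo i m b) := by
  refine continuousOn_univ.1 (continuousOn_toLoop (T := fun _ => m * G.ℓ i)
    (f := fun s t => G.c i (sg b * m * t + s)) (fun s _ => loop2_geo i m b s) continuousOn_const ?_)
  exact ((G.continuous_c i).comp (by fun_prop)).continuousOn

theorem geo_inj (i : G.ι) {m : ℕ} (hm : 0 < m) (b : Bool) {s s' : ℝ} (h : G.geo i m b s = G.geo i m b s') :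
    ∃ k : ℤ, s' = s + k := by
  obtain ⟨k, hk⟩ := G.c_prime i (s' - s) fun u => by
    obtain ⟨t, rfl⟩ := loop2_surj hm b s u
    rw [← geo_ev, h, geo_ev]
    congr 1
    ring
  exact ⟨k, by linarith⟩

theorem isCompact_Orb (i : G.ι) (m : ℕ) (b : Bool) : IsCompact (G.Orb i m b) := by
  exact (geo_per i m b).compact_of_continuous one_ne_zero (continuous_geo i m b)

/-- distinct critical circles are disjoint -/
theorem disjoint_Orb {i i' : G.ι} {m m' : ℕ} {b b' : Bool} (hm : 0 < m) (hm' : 0 < m')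
    (h : ¬ (i = i' ∧ m = m' ∧ b = b')) : Disjoint (G.Orb i m b) (G.Orb i' m' b') := by
  refine disjoint_left.2 ?_
  rintro _ ⟨s, rfl⟩ ⟨s', e⟩
  have e1 : ∀ t, G.c i' (sg b' * m' * t + s') = G.c i (sg b * m * t + s) := fun t => by
    rw [← geo_ev, e, geo_ev]
  obtain rfl : i = i' := by
    refine G.c_range _ _ (Subset.antisymm ?_ ?_) <;> rintro _ ⟨u, rfl⟩
    · obtain ⟨t, rfl⟩ := loop2_surj hm b s u
      exact ⟨_, e1 t⟩
    · obtain ⟨t, rfl⟩ := loop2_surj hm' b' s' u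
      exact ⟨_, (e1 t).symm⟩
  have e2 := congrArg Loop.T e
  rw [geo_T, geo_T] at e2
  obtain rfl : m' = m := by exact_mod_cast mul_right_cancel₀ (G.ℓ_pos i).ne' e2
  obtain rfl : b' = !b := Bool.eq_not_iff.2 fun h' => h ⟨rfl, rfl, h'.symm⟩
  refine G.c_rev i (s + s') fun u => ?_
  obtain ⟨t, rfl⟩ := loop2_surj hm b s u
  rw [← e1, loop2_not]
  congr 1
  ring

theorem isCompact_Kr (l : ℝ) (b : Bool) : IsCompact (G.Kr l b) := by
  have e : G.Kr l b = ⋃ i, ⋃ m ∈ {m : ℕ | 0 < m ∧ l = m * G.ℓ i}, G.Orb i m b := by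
    ext γ
    simp only [Kr, mem_setOf_eq, mem_iUnion, exists_prop, and_assoc]
  rw [e]
  refine isCompact_iUnion fun i => (Subsingleton.finite fun m hm m' hm' => ?_).isCompact_biUnion
    fun m _ => isCompact_Orb i m b
  exact_mod_cast mul_right_cancel₀ (G.ℓ_pos i).ne' (hm.2.symm.trans hm'.2)

theorem disjoint_Kr (l : ℝ) : Disjoint (G.Kr l true) (G.Kr l false) := by
  refine disjoint_left.2 ?_
  rintro γ ⟨i, m, hm, -, h⟩ ⟨i', m', hm', -, h'⟩
  exact disjoint_left.1 (disjoint_Orb hm hm' (by simp)) h h'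

theorem isOpen_Tube (l : ℝ) (b : Bool) (r : ℝ) : IsOpen (G.Tube l b r) := Metric.isOpen_thickening

theorem exists_disjoint_Tube (l : ℝ) : ∃ r, 0 < r ∧ Disjoint (G.Tube l true r) (G.Tube l false r) := by
  exact (disjoint_Kr l).exists_thickenings (isCompact_Kr l true) (isCompact_Kr l false).isClosed

theorem shift_mem_Tube {l r : ℝ} {b : Bool} {γ : G.Loop} (s : ℝ) (h : γ ∈ G.Tube l b r) :
    γ.shift s ∈ G.Tube l b r := by
  obtain ⟨_, ⟨i, m, hm, e, u, rfl⟩, h⟩ := Metric.mem_thickening_iff.1 h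
  exact Metric.mem_thickening_iff.2 ⟨_, ⟨i, m, hm, e, _, (geo_shift i m b u s).symm⟩, by rwa [dist_shift]⟩

theorem tau_mem_Tube {l r : ℝ} {b : Bool} {γ : G.Loop} (h : γ ∈ G.Tube l b r) : γ.tau ∈ G.Tube l (!b) r := by
  obtain ⟨_, ⟨i, m, hm, e, u, rfl⟩, h⟩ := Metric.mem_thickening_iff.1 h
  exact Metric.mem_thickening_iff.2 ⟨_, ⟨i, m, hm, e, _, (geo_tau i m b u).symm⟩, by rwa [dist_tau]⟩

theorem dbl_mem_Tube {l r : ℝ} {b : Bool} {γ : G.Loop} (h : γ ∈ G.Tube l b r) :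
    γ.dbl ∈ G.Tube (2 * l) b (2 * r) := by
  obtain ⟨_, ⟨i, m, hm, e, u, rfl⟩, h⟩ := Metric.mem_thickening_iff.1 h
  exact Metric.mem_thickening_iff.2 ⟨_, ⟨i, 2 * m, by omega, by rw [e]; push_cast; ring, _,
    (geo_dbl i m b u).symm⟩, (dist_dbl_le _ _).trans_lt (by linarith)⟩

theorem critV_fin : ∃ r : ℕ, ∀ a : ℝ, (G.critV ∩ Icc a (a + 1)).Finite ∧ (G.critV ∩ Icc a (a + 1)).ncard ≤ r := by
  obtain ⟨K, hK⟩ := (finite_range fun i => ⌈1 / G.ℓ i⌉₊).bddAbove
  refine ⟨(Finset.univ ×ˢ Finset.range (K + 1) : Finset (G.ι × ℕ)).card, fun a => ?_⟩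
  have h : G.critV ∩ Icc a (a + 1) ⊆ ((Finset.univ ×ˢ Finset.range (K + 1)).image
      fun p : G.ι × ℕ => ((⌈a / G.ℓ p.1⌉₊ + p.2 : ℕ) : ℝ) * G.ℓ p.1 : Finset ℝ) := by
    rintro _ ⟨⟨i, m, -, rfl⟩, h1, h2⟩
    have l0 := G.ℓ_pos i
    obtain ⟨j, rfl⟩ := Nat.exists_eq_add_of_le (Nat.ceil_le.2 ((div_le_iff₀ l0).2 h1))
    refine Finset.mem_coe.2 (Finset.mem_image.2 ⟨(i, j), Finset.mem_product.2 ⟨Finset.mem_univ _,
      Finset.mem_range.2 (Nat.lt_succ_of_le (le_trans ?_ (hK ⟨i, rfl⟩)))⟩, rfl⟩)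
    have h3 := (div_le_iff₀ l0).1 (Nat.le_ceil (a / G.ℓ i))
    push_cast at h2
    exact_mod_cast ((le_div_iff₀ l0).2 (by linarith : j * G.ℓ i ≤ 1)).trans (Nat.le_ceil _)
  exact ⟨(Finset.finite_toSet _).subset h, (ncard_le_ncard h).trans
    ((ncard_coe_finset _).trans_le Finset.card_image_le)⟩

/-- critical values are isolated from the right and from the left -/
theorem critV_isolated (l : ℝ) : ∃ e, 0 < e ∧ ∀ x ∈ G.critV, |x - l| ≤ e → x = l := by
  obtain ⟨r, hr⟩ := critV_fin (G := G)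
  have h1 := ((hr (l - 1 / 2)).1.sdiff (t := {l})).isClosed.isOpen_compl.mem_nhds
    (x := l) fun h => h.2 rfl
  obtain ⟨e, he, h2⟩ := Metric.nhds_basis_closedBall.mem_iff.1 h1
  refine ⟨min e (1 / 2), by positivity, fun x hx h => by_contra fun h' => ?_⟩
  obtain ⟨h3, h4⟩ := le_min_iff.1 h
  rw [abs_le] at h4
  exact h2 (show x ∈ Metric.closedBall l e from h3) ⟨⟨hx, by linarith [h4.1], by linarith [h4.2]⟩, h'⟩

end Setup
end Crest.Agent.R231
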